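import Mathlib

/-!
Row 73: the spectral gap for tuples that pairwise generate Heisenberg groups.
-/

set_option autoImplicit false
set_option linter.unusedVariables false
set_option linter.unusedSectionVars false

open Finset
open scoped commutatorElement

namespace Crest.Agent.R73

/-- The index set of the generators. -/
abbrev I := Option (ZMod 3)

/-- The relations. -/
def Rel {K : Type*} [Group K] (g : I → K) : Prop :=
  (∀ i, g i ^ 17 = 1) ∧ ∀ i j, Commute ⁅g i, g j⁆ (g i)

section Groups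
variable {K L : Type*} [Group K] [Group L]

lemma Rel.map {g : I → K} (h : Rel g) (f : K →* L) : Rel fun i => f (g i) :=
  ⟨fun i => by rw [← map_pow, h.1, map_one], fun i j => by
    rw [← map_commutatorElement]
    exact (h.2 i j).map f⟩

lemma Rel.of_inj {g : I → K} (f : K →* L) (hf : Function.Injective f)
    (h : Rel fun i => f (g i)) : Rel g :=
  ⟨fun i => hf (by rw [map_pow, h.1, map_one]), fun i j => hf (by
    rw [map_mul, map_mul, map_commutatorElement]
    exact h.2 i j)⟩

lemma Rel.prod {g : I → K} {g' : I → L} (h : Rel g) (h' : Rel g') : Rel fun i => (g i, g' i) :=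
  ⟨fun i => Prod.ext (h.1 i) (h'.1 i), fun i j => Prod.ext (h.2 i j) (h'.2 i j)⟩

lemma Rel.pi {α : Type*} {M : α → Type*} [∀ a, Group (M a)] {g : I → ∀ a, M a}
    (h : ∀ a, Rel fun i => g i a) : Rel g :=
  ⟨fun i => funext fun a => (h a).1 i, fun i j => funext fun a => (h a).2 i j⟩

/-- The unit `1 + E`. -/
def un {R : Type*} [Ring R] (E : R) (h : E * E = 0) : Rˣ :=
  ⟨1 + E, 1 - E, by simp [mul_sub, add_mul, h], by simp [sub_mul, mul_add, h]⟩

lemma un_pow {R : Type*} [Ring R] (E : R) (h : E * E = 0) (n : ℕ) :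
    ((un E h ^ n : Rˣ) : R) = 1 + n • E := by
  induction n with
  | zero => simp
  | succ n ih =>
    rw [pow_succ, Units.val_mul, ih]
    simp [un, add_mul, mul_add, h, succ_nsmul, mul_assoc, add_assoc, add_comm]

lemma rel_un {R : Type*} [Ring R] (hR : (17 : R) = 0) (E : I → R) (h : ∀ i, E i * E i = 0)
    (h' : ∀ i j, E i * (E j * E i) = 0) : Rel fun i => un (E i) (h i) := by
  refine ⟨fun i => Units.ext ?_, fun i j => Units.ext ?_⟩
  · rw [un_pow, nsmul_eq_mul, Nat.cast_ofNat, hR]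
    simp
  · have h2 : ∀ i x, E i * (E i * x) = 0 := fun i x => by rw [← mul_assoc, h, zero_mul]
    have h3 : ∀ i j x, E i * (E j * (E i * x)) = 0 := fun i j x => by
      rw [← mul_assoc (E j), ← mul_assoc, h', zero_mul]
    have h4 : ((⁅un (E i) (h i), un (E j) (h j)⁆ : Rˣ) : R) = 1 + E i * E j - E j * E i := by
      change (1 + E i) * (1 + E j) * (1 - E i) * (1 - E j) = _
      simp only [mul_add, add_mul, mul_sub, sub_mul, mul_assoc, one_mul, mul_one, h, h', h2, h3,
        mul_zero, zero_mul]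
      abel
    rw [Units.val_mul, Units.val_mul, h4]
    change _ * (1 + E i) = (1 + E i) * _
    simp only [mul_add, add_mul, mul_sub, sub_mul, mul_assoc, one_mul, mul_one, h, h', h2, h3,
      mul_zero]
    abel

end Groups

variable {D : Type*} [CStarAlgebra D]

/-- The averaging projection. -/
noncomputable def pr (a : unitary D) : D := (1 / 17 : ℝ) • ∑ t ∈ range 17, ((a ^ t : unitary D) : D)

lemma mul_pr {a : unitary D} (h : a ^ 17 = 1) : (a : D) * pr a = pr a := by
  have h1 := mul_geom_sum (a : D) 17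
  rw [← SubmonoidClass.coe_pow, h, OneMemClass.coe_one, sub_self, sub_mul, one_mul,
    sub_eq_zero] at h1
  simp only [pr, mul_smul_comm, SubmonoidClass.coe_pow, h1]

lemma pr_mul_of {a : unitary D} {x : D} (h : (a : D) * x = x) : pr a * x = x := by
  have h1 : ∀ t : ℕ, (a : D) ^ t * x = x := fun t => by
    induction t with
    | zero => simp
    | succ t ih => rw [pow_succ, mul_assoc, h, ih]
  simp only [pr, smul_mul_assoc, sum_mul, SubmonoidClass.coe_pow, h1, sum_const, card_range]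
  rw [← Nat.cast_smul_eq_nsmul ℝ, smul_smul]
  norm_num

lemma commute_pr {a : unitary D} {x : D} (h : Commute x (a : D)) : Commute x (pr a) :=
  (Commute.sum_right _ _ _ fun t _ => by
    rw [SubmonoidClass.coe_pow]
    exact h.pow_right t).smul_right _

lemma pr_mul_pr {a : unitary D} (h : a ^ 17 = 1) : pr a * pr a = pr a := pr_mul_of (mul_pr h)

lemma star_pr {a : unitary D} (h : a ^ 17 = 1) : star (pr a) = pr a := by
  have h1 : (a : D) * star (pr a) = star (pr a) := by
    have h2 : pr a * star (a : D) = pr a := by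
      conv_lhs => rw [← mul_pr h, (commute_pr (Commute.refl _)).eq, mul_assoc,
        Unitary.mul_star_self_of_mem a.2, mul_one]
    simpa using congrArg star h2
  have h3 := pr_mul_of h1
  have h4 := congrArg star h3
  rw [star_mul, star_star, h3] at h4
  exact h4

section Order
variable [PartialOrder D] [StarOrderedRing D]

lemma sq_nonneg' {x : D} (h : star x = x) : 0 ≤ x * x := by
  simpa [h] using star_mul_self_nonneg x

lemma pair_aux {P Q : D} (hP : star P = P) (hQ : star Q = Q) (hPP : P * P = P) (hQQ : Q * Q = Q)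
    (h : P * (Q * P) = (1 / 17 : ℝ) • P) :
    0 ≤ (1 - P) * (1 - Q) + (1 - Q) * (1 - P) + (1 / 4 : ℝ) • ((1 - P) + (1 - Q)) := by
  have hP0 : 0 ≤ P := hPP ▸ sq_nonneg' hP
  have hQQ' : ∀ x, Q * (Q * x) = Q * x := fun x => by rw [← mul_assoc, hQQ]
  let A := (5 / 4 : ℝ) • (1 : D) - (P + Q)
  have hA : star A = A := by simp [A, hP, hQ]
  have h1 : A = (4 / 5 : ℝ) • (A * A + ((4 : ℝ) • (star (Q * P - (1 / 4 : ℝ) • Q) *
      (Q * P - (1 / 4 : ℝ) • Q)) + (1 / 68 : ℝ) • P)) := by
    simp only [A, star_sub, star_mul, star_smul, hP, hQ, star_trivial, mul_add, add_mul, mul_sub,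
      sub_mul, smul_mul_assoc, mul_smul_comm, mul_assoc, one_mul, mul_one, hPP, hQQ, hQQ', h]
    module
  have h2 : 0 ≤ A := by
    rw [h1]
    exact smul_nonneg (by norm_num) (add_nonneg (sq_nonneg' hA) (add_nonneg
      (smul_nonneg (by norm_num) (star_mul_self_nonneg _)) (smul_nonneg (by norm_num) hP0)))
  have h3 : (1 - P) * (1 - Q) + (1 - Q) * (1 - P) + (1 / 4 : ℝ) • ((1 - P) + (1 - Q)) =
      A * A + (3 / 4 : ℝ) • A := by
    simp only [A, mul_add, add_mul, mul_sub, sub_mul, smul_mul_assoc, mul_smul_comm, one_mul,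
      mul_one, hPP, hQQ]
    module
  rw [h3]
  exact add_nonneg (sq_nonneg' hA) (smul_nonneg (by norm_num) h2)

lemma pair {a b : unitary D} (ha : a ^ 17 = 1) (hb : b ^ 17 = 1) (h1 : Commute ⁅a, b⁆ a)
    (h2 : Commute ⁅a, b⁆ b) :
    0 ≤ (1 - pr a) * (1 - pr b) + (1 - pr b) * (1 - pr a) +
      (1 / 4 : ℝ) • ((1 - pr a) + (1 - pr b)) := by
  set z := ⁅a, b⁆ with hz
  have h3 : ∀ t : ℕ, a * b ^ t = z ^ t * b ^ t * a := fun t => by
    have h4 : a * b * a⁻¹ = z * b := by rw [hz, commutatorElement_def]; group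
    rw [← h2.mul_pow, ← h4, conj_pow]
    group
  have hz17 : z ^ 17 = 1 := by simpa [hb] using (h3 17).symm
  have c1 : Commute (z : D) a := congrArg Subtype.val h1
  have c2 : Commute (z : D) b := congrArg Subtype.val h2
  have h3' : ∀ t : ℕ, (a : D) * b ^ t = z ^ t * b ^ t * a := fun t => congrArg Subtype.val (h3 t)
  set P := pr a
  set Q := pr b
  set R := pr z
  have hP : star P = P := star_pr ha
  have hQ : star Q = Q := star_pr hb
  have hR : star R = R := star_pr hz17
  have hPP : P * P = P := pr_mul_pr ha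
  have hQQ : Q * Q = Q := pr_mul_pr hb
  have hRR : R * R = R := pr_mul_pr hz17
  have cRa : Commute R a := (commute_pr c1.symm).symm
  have cRb : Commute R b := (commute_pr c2.symm).symm
  have cRP : Commute R P := commute_pr cRa
  have cRQ : Commute R Q := commute_pr cRb
  have hzR : ∀ t : ℕ, (z : D) ^ t * R = R := fun t => by
    induction t with
    | zero => simp
    | succ t ih => rw [pow_succ, mul_assoc, mul_pr hz17, ih]
  have c3 : Commute (Q * R) P := by
    refine commute_pr ?_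
    simp only [Q, pr, smul_mul_assoc, sum_mul]
    refine (Commute.sum_left _ _ _ fun t _ => ?_).smul_left _
    change (b : D) ^ t * R * a = a * ((b : D) ^ t * R)
    rw [← mul_assoc, h3', (c2.pow_pow t t).eq, mul_assoc ((b : D) ^ t * _), ← cRa.eq,
      mul_assoc ((b : D) ^ t) ((z : D) ^ t), ← mul_assoc ((z : D) ^ t), hzR, mul_assoc]
  have h5 : ∀ t ∈ range 16, R * (P * (b : D) ^ (t + 1) * P) = P * (b : D) ^ (t + 1) * P := by
    intro t ht
    refine pr_mul_of ?_
    have hPa : P * a = P := ((commute_pr (Commute.refl _)).eq).symm.trans (mul_pr ha)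
    have h6 : (z : D) ^ (t + 1) * (P * (b : D) ^ (t + 1) * P) = P * (b : D) ^ (t + 1) * P := by
      conv_rhs => rw [← hPa, mul_assoc P, h3', hPa, ← mul_assoc, ← mul_assoc, mul_assoc _ _ P,
        mul_pr ha, ← ((commute_pr c1).pow_left _).eq]
      simp only [mul_assoc]
      rfl
    obtain ⟨m, hm⟩ : ∃ m, (z ^ (t + 1)) ^ m = z := exists_pow_eq_self_of_coprime
      (Nat.Coprime.coprime_dvd_right (orderOf_dvd_of_pow_eq_one hz17)
        (Nat.coprime_of_lt_prime (by simp) (by have := mem_range.mp ht; omega)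
          (by norm_num)).symm)
    have hm' : ((z : D) ^ (t + 1)) ^ m = z := congrArg Subtype.val hm
    rw [← hm']
    clear hm hm'
    induction m with
    | zero => simp
    | succ m ih => rw [pow_succ, mul_assoc, h6, ih]
  have h7 : (1 - R) * (P * Q * P) = (1 / 17 : ℝ) • ((1 - R) * P) := by
    simp only [Q, pr, smul_mul_assoc, mul_smul_comm, sum_mul, mul_sum, SubmonoidClass.coe_pow]
    rw [sum_range_succ', sum_eq_zero fun t ht => by rw [sub_mul, h5 t ht, one_mul, sub_self]]
    simp [hPP]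
  have e1 : ∀ x, R * (P * x) = P * (R * x) := fun x => by rw [← mul_assoc, cRP.eq, mul_assoc]
  have e2 : ∀ x, R * (Q * x) = Q * (R * x) := fun x => by rw [← mul_assoc, cRQ.eq, mul_assoc]
  have e3 : ∀ x, P * (P * x) = P * x := fun x => by rw [← mul_assoc, hPP]
  have e4 : ∀ x, Q * (Q * x) = Q * x := fun x => by rw [← mul_assoc, hQQ]
  have e5 : ∀ x, R * (R * x) = R * x := fun x => by rw [← mul_assoc, hRR]
  have e6 : Q * (P * R) = P * (Q * R) := by rw [← c3.eq, mul_assoc, cRP.eq]
  have e7 : Q * (P * (Q * R)) = P * (Q * R) := by rw [← e6, e4]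
  have h8 := pair_aux (P := P * (1 - R)) (Q := Q * (1 - R))
    (by simp [hP, hR, sub_mul, mul_sub, cRP.eq]) (by simp [hQ, hR, sub_mul, mul_sub, cRQ.eq])
    (by simp [sub_mul, mul_sub, mul_assoc, e1, e3, cRP.eq, hPP, hRR])
    (by simp [sub_mul, mul_sub, mul_assoc, e2, e4, cRQ.eq, hQQ, hRR])
    (by
      simp only [sub_mul, mul_sub, mul_assoc, e1, e2, e5, cRP.eq, hRR, one_mul, mul_one] at h7 ⊢
      rw [← h7]
      abel)
  have h9 := star_left_conjugate_nonneg h8 (1 - R)
  refine le_of_le_of_eq (add_nonneg h9 (add_nonneg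
    (smul_nonneg (by norm_num : (0 : ℝ) ≤ 2) (star_mul_self_nonneg ((1 - P) * (1 - Q) * R)))
    (smul_nonneg (by norm_num : (0 : ℝ) ≤ 1 / 4) (add_nonneg (star_mul_self_nonneg ((1 - P) * R))
      (star_mul_self_nonneg ((1 - Q) * R)))))) ?_
  simp only [star_sub, star_mul, star_one, hP, hQ, hR, mul_add, add_mul, mul_sub, sub_mul,
    smul_mul_assoc, mul_smul_comm, mul_assoc, one_mul, mul_one, hPP, hQQ, hRR, e1, e2, e3, e4, e5,
    e6, e7, cRP.eq, cRQ.eq]
  module

end Order

/-- The averaging operator. -/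
noncomputable def av (U : I → unitary D) : D := ∑ i, ∑ t ∈ range 17, ((U i ^ t : unitary D) : D)

lemma av_eq (U : I → unitary D) : av U = (17 : ℝ) • ∑ i, pr (U i) := by
  simp [av, pr, smul_sum, smul_smul]

lemma av_mul {U : I → unitary D} {x : D} (h : ∀ i, (U i : D) * x = x) :
    av U * x = (68 : ℝ) • x := by
  simp only [av_eq, smul_mul_assoc, sum_mul, pr_mul_of (h _), sum_const, card_univ,
    Fintype.card_option, ZMod.card]
  rw [← Nat.cast_smul_eq_nsmul ℝ, smul_smul]
  norm_num

lemma le_norm_av {U : I → unitary D} {x : D} (hx : x ≠ 0) (h : ∀ i, (U i : D) * x = x) :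
    68 ≤ ‖av U‖ := by
  have h1 := norm_mul_le (av U) x
  rw [av_mul h, norm_smul, Real.norm_ofNat] at h1
  exact le_of_mul_le_mul_right h1 (norm_pos_iff.mpr hx)

theorem gap {U : I → unitary D} (h : Rel U) :
    ∃ q : D, star q = q ∧ q * q = q ∧ (∀ i, (U i : D) * q = q) ∧ ‖av U * (1 - q)‖ ≤ 64 := by
  let _ := CStarAlgebra.spectralOrder D
  have := CStarAlgebra.spectralOrderedRing D
  let Q : I → D := fun i => 1 - pr (U i)
  have hQ : ∀ i, star (Q i) = Q i := fun i => by simp [Q, star_pr (h.1 i)]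
  have hQQ : ∀ i, Q i * Q i = Q i := fun i => by simp [Q, mul_sub, sub_mul, pr_mul_pr (h.1 i)]
  have hQ0 : ∀ i, 0 ≤ Q i := fun i => hQQ i ▸ sq_nonneg' (hQ i)
  set Δ := ∑ i, Q i with hΔ
  have hΔ0 : 0 ≤ Δ := sum_nonneg fun i _ => hQ0 i
  have hsa : IsSelfAdjoint Δ := .of_nonneg hΔ0
  have hΔ4 : Δ ≤ algebraMap ℝ D 4 := by
    have h1 : ∀ i, Q i ≤ 1 := fun i =>
      sub_le_self _ (pr_mul_pr (h.1 i) ▸ sq_nonneg' (star_pr (h.1 i)))
    refine (sum_le_sum fun i _ => h1 i).trans (le_of_eq ?_)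
    simp [map_ofNat]
  have hg : (1 / 4 : ℝ) • Δ ≤ Δ * Δ := by
    have h1 : ∀ i j, 0 ≤ Q i * Q j + Q j * Q i + (1 / 4 : ℝ) • (Q i + Q j) -
        if i = j then (5 / 2 : ℝ) • Q i else 0 := fun i j => by
      split_ifs with hij
      · rw [hij, hQQ]
        exact le_of_eq (by module)
      · rw [sub_zero]
        refine pair (h.1 i) (h.1 j) (h.2 i j) ?_
        rw [← commutatorElement_inv]
        exact (h.2 j i).inv_left
    have h2 := smul_nonneg (by norm_num : (0 : ℝ) ≤ 1 / 2)
      (sum_nonneg fun i (_ : i ∈ univ) => sum_nonneg fun j (_ : j ∈ univ) => h1 i j)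
    rw [← sub_nonneg]
    refine le_of_le_of_eq h2 ?_
    simp only [sum_sub_distrib, sum_add_distrib, smul_add, ← mul_sum, ← sum_mul, ← smul_sum,
      sum_ite_eq, mem_univ, if_true, sum_const, card_univ, Fintype.card_option, ZMod.card, ← hΔ]
    module
  have hsp : ∀ t ∈ spectrum ℝ Δ, t = 0 ∨ (1 / 4 ≤ t ∧ t ≤ 4) := fun t ht => by
    have h0 : 0 ≤ t := spectrum_nonneg_of_nonneg hΔ0 ht
    have h4 : t ≤ 4 := (le_algebraMap_iff_spectrum_le hsa).mp hΔ4 t ht
    have h1 : cfc (fun t : ℝ => 1 / 4 * t) Δ ≤ cfc (fun t : ℝ => t * t) Δ := by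
      rwa [cfc_const_mul_id .., cfc_mul .., cfc_id' ..]
    have h2 := (cfc_le_iff _ _ _).mp h1 t ht
    rcases h0.eq_or_lt with h0 | h0
    · exact .inl h0.symm
    · exact .inr ⟨le_of_mul_le_mul_right h2 h0, h4⟩
  let f : ℝ → ℝ := fun t => max 0 (1 - 4 * t)
  have hf : Continuous f := by fun_prop
  have hf0 : f 0 = 1 := by simp [f]
  have hf1 : ∀ t, 1 / 4 ≤ t → f t = 0 := fun t ht => max_eq_left (by linarith)
  have hq : star (cfc f Δ) = cfc f Δ := cfc_predicate f Δ
  have hΔq : Δ * cfc f Δ = 0 := by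
    have h1 : cfc (fun t => t * f t) Δ = cfc (0 : ℝ → ℝ) Δ := cfc_congr fun t ht => by
      rcases hsp t ht with h | h
      · simp [h]
      · simp [hf1 t h.1]
    rwa [cfc_mul .., cfc_id' .., cfc_zero] at h1
  refine ⟨cfc f Δ, hq, ?_, fun i => ?_, ?_⟩
  · rw [← cfc_mul ..]
    refine cfc_congr fun t ht => ?_
    rcases hsp t ht with h | h
    · simp [h, hf0]
    · simp [hf1 t h.1]
  · have h1 : ∑ i, star (Q i * cfc f Δ) * (Q i * cfc f Δ) = 0 := by
      simp only [star_mul, hQ, mul_assoc, ← mul_assoc (Q _), hQQ, ← mul_sum, ← sum_mul, ← hΔ, hΔq,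
        mul_zero]
    have h2 := (CStarRing.star_mul_self_eq_zero_iff _).mp
      ((sum_eq_zero_iff_of_nonneg fun i _ => star_mul_self_nonneg _).mp h1 i (mem_univ _))
    rw [sub_mul, one_mul, sub_eq_zero] at h2
    rw [h2, ← mul_assoc, mul_pr (h.1 i)]
  · have h1 : av U = cfc (fun t : ℝ => 68 - 17 * t) Δ := by
      rw [cfc_sub .., cfc_const_mul_id .., cfc_const .., av_eq, hΔ, Algebra.algebraMap_eq_smul_one]
      simp only [Q, sum_sub_distrib, sum_const, card_univ, Fintype.card_option, ZMod.card]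
      module
    have h2 : 1 - cfc f Δ = cfc (fun t : ℝ => 1 - f t) Δ := by
      rw [cfc_sub .., cfc_const_one ..]
    rw [h1, h2, ← cfc_mul ..]
    refine norm_cfc_le (by norm_num) fun t ht => ?_
    rcases hsp t ht with h | h
    · simp [h, hf0]
    · rw [hf1 t h.1, Real.norm_eq_abs, abs_le]
      constructor <;> linarith [h.1, h.2]

end Crest.Agent.R73
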