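import Mathlib

/-!
Row 73: universal C⋆-algebras and norm ultrapowers.
-/

set_option autoImplicit false
set_option linter.unusedVariables false
set_option linter.unusedSectionVars false

open Filter Topology UniformSpace
open scoped ENNReal

namespace Crest.Agent.R73

/-! ### Universal algebras -/

/-- Star polynomials. -/
inductive Tm (ι : Type) : Type
  | gen : ι → Tm ι
  | sc : ℂ → Tm ι
  | add : Tm ι → Tm ι → Tm ι
  | mul : Tm ι → Tm ι → Tm ι
  | st : Tm ι → Tm ι

variable {ι : Type}

/-- Evaluation of a star polynomial. -/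
noncomputable def Tm.ev {B : Type} [CStarAlgebra B] (g : ι → B) : Tm ι → B
  | .gen i => g i
  | .sc c => algebraMap ℂ B c
  | .add s t => s.ev g + t.ev g
  | .mul s t => s.ev g * t.ev g
  | .st s => star (s.ev g)

lemma Tm.map_ev {B C : Type} [CStarAlgebra B] [CStarAlgebra C] (f : B →⋆ₐ[ℂ] C) (g : ι → B)
    (t : Tm ι) : f (t.ev g) = t.ev (fun i => f (g i)) := by
  induction t with
  | gen i => rfl
  | sc c => exact AlgHomClass.commutes f c
  | add s t hs ht => simp only [Tm.ev, map_add, hs, ht]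
  | mul s t hs ht => simp only [Tm.ev, map_mul, hs, ht]
  | st s hs => simp only [Tm.ev, map_star, hs]

lemma Tm.exists_ev {B : Type} [CStarAlgebra B] (g : ι → B) {x : B}
    (hx : x ∈ StarAlgebra.adjoin ℂ (Set.range g)) : ∃ t : Tm ι, t.ev g = x := by
  induction hx using StarAlgebra.adjoin_induction with
  | mem x hx =>
    obtain ⟨i, rfl⟩ := hx
    exact ⟨.gen i, rfl⟩
  | algebraMap r => exact ⟨.sc r, rfl⟩
  | add x y _ _ hx hy =>
    obtain ⟨s, rfl⟩ := hx
    obtain ⟨t, rfl⟩ := hy
    exact ⟨.add s t, rfl⟩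
  | mul x y _ _ hx hy =>
    obtain ⟨s, rfl⟩ := hx
    obtain ⟨t, rfl⟩ := hy
    exact ⟨.mul s t, rfl⟩
  | star x _ hx =>
    obtain ⟨s, rfl⟩ := hx
    exact ⟨.st s, rfl⟩

noncomputable instance {I : Type} {A : I → Type} [∀ i, Nontrivial (A i)]
    [∀ i, CStarAlgebra (A i)] : CStarAlgebra (lp A ∞) where

/-- The closed subalgebra generated by a family. -/
noncomputable def Gen {B : Type} [CStarAlgebra B] (g : ι → B) : StarSubalgebra ℂ B :=
  (StarAlgebra.adjoin ℂ (Set.range g)).topologicalClosure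

instance {B : Type} [CStarAlgebra B] (g : ι → B) : IsClosed (Gen g : Set B) :=
  StarSubalgebra.isClosed_topologicalClosure _

noncomputable instance {B : Type} [CStarAlgebra B] (g : ι → B) : CStarAlgebra (Gen g) :=
  StarSubalgebra.cstarAlgebra _

/-- The generators. -/
noncomputable def gg {B : Type} [CStarAlgebra B] (g : ι → B) (i : ι) : Gen g :=
  ⟨g i, StarSubalgebra.le_topologicalClosure _ (StarAlgebra.subset_adjoin ℂ _ ⟨i, rfl⟩)⟩

lemma gen_top {B : Type} [CStarAlgebra B] (g : ι → B) :
    (StarAlgebra.adjoin ℂ (Set.range (gg g))).topologicalClosure = ⊤ := by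
  refine eq_top_iff.mpr fun x _ => ?_
  change x ∈ closure _
  rw [IsInducing.subtypeVal.closure_eq_preimage_closure_image]
  refine closure_mono (fun y hy => ?_) x.2
  obtain ⟨t, rfl⟩ := Tm.exists_ev g hy
  have h := Tm.map_ev (Gen g).subtype (gg g) t
  refine ⟨t.ev (gg g), ?_, h⟩
  clear h hy
  induction t with
  | gen i => exact StarAlgebra.subset_adjoin ℂ _ ⟨i, rfl⟩
  | sc c => exact Subalgebra.algebraMap_mem _ c
  | add s t hs ht => exact add_mem hs ht
  | mul s t hs ht => exact mul_mem hs ht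
  | st s hs => exact star_mem hs

lemma exists_hom {A B : Type} [CStarAlgebra A] [CStarAlgebra B] (g : ι → A) (w : ι → B)
    (hg : (StarAlgebra.adjoin ℂ (Set.range g)).topologicalClosure = ⊤)
    (h : ∀ t : Tm ι, ‖t.ev w‖ ≤ ‖t.ev g‖) : ∃ φ : A →⋆ₐ[ℂ] B, ∀ i, φ (g i) = w i := by
  let p : ι → A × B := fun i => (g i, w i)
  let f : Gen p →⋆ₐ[ℂ] A := (StarAlgHom.fst ℂ A B).comp (Gen p).subtype
  have h1 : ∀ x : Gen p, ‖x.1.2‖ ≤ ‖x.1.1‖ := fun x => by
    refine closure_minimal (t := {y : A × B | ‖y.2‖ ≤ ‖y.1‖}) (fun y hy => ?_)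
      (isClosed_le (by fun_prop) (by fun_prop)) x.2
    obtain ⟨t, rfl⟩ := Tm.exists_ev p hy
    have e1 := Tm.map_ev (StarAlgHom.fst ℂ A B) p t
    have e2 := Tm.map_ev (StarAlgHom.snd ℂ A B) p t
    exact (le_of_eq (congrArg norm e2)).trans ((h t).trans (le_of_eq (congrArg norm e1).symm))
  have h2 : Isometry f := AddMonoidHomClass.isometry_of_norm f fun x =>
    (max_eq_left (h1 x)).symm
  have h3 : Function.Surjective f := fun a => by
    have ha : a ∈ (StarAlgebra.adjoin ℂ (Set.range g)).topologicalClosure := hg ▸ trivial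
    refine closure_minimal (t := Set.range f) (fun y hy => ?_) h2.isClosedEmbedding.isClosed_range ha
    obtain ⟨t, rfl⟩ := Tm.exists_ev g hy
    exact ⟨t.ev (gg p), Tm.map_ev f (gg p) t⟩
  let e := StarAlgEquiv.ofBijective f ⟨h2.injective, h3⟩
  refine ⟨((StarAlgHom.snd ℂ A B).comp (Gen p).subtype).comp (e.symm : A →⋆ₐ[ℂ] Gen p),
    fun i => ?_⟩
  have : e.symm (g i) = gg p i := e.symm_apply_eq.mpr rfl
  change (e.symm (g i)).1.2 = _
  rw [this]
  rfl

theorem exists_univ (R : Set (Tm ι))
    (hR : ∀ (B : Type) [CStarAlgebra B] (w : ι → B), (∀ t ∈ R, t.ev w = 0) → ∀ i, ‖w i‖ ≤ 1) :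
    ∃ (A : Type) (_ : CStarAlgebra A) (g : ι → A), (∀ t ∈ R, t.ev g = 0) ∧
      (StarAlgebra.adjoin ℂ (Set.range g)).topologicalClosure = ⊤ ∧
      ∀ (B : Type) [CStarAlgebra B] (w : ι → B), (∀ t ∈ R, t.ev w = 0) →
        ∃ φ : A →⋆ₐ[ℂ] B, ∀ i, φ (g i) = w i := by
  let I := {x : Tm ι × ℝ // ∃ (B : Type) (_ : CStarAlgebra B) (w : ι → B),
    (∀ t ∈ R, t.ev w = 0) ∧ 0 ≤ x.2 ∧ x.2 < ‖x.1.ev w‖}
  choose B inst w hw h0 h1 using fun x : I => x.2
  have : ∀ x, Nontrivial (B x) := fun x =>
    ⟨_, 0, norm_pos_iff.mp ((h0 x).trans_lt (h1 x))⟩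
  let v : ι → lp B ∞ := fun i => ⟨fun x => w x i, memℓp_infty ⟨1, by
    rintro _ ⟨x, rfl⟩
    exact hR _ _ (hw x) i⟩⟩
  let e : ∀ x, lp B ∞ →⋆ₐ[ℂ] B x := fun x =>
    { toFun := fun f => f x
      map_one' := rfl
      map_mul' := fun _ _ => rfl
      map_zero' := rfl
      map_add' := fun _ _ => rfl
      commutes' := fun _ => rfl
      map_star' := fun _ => rfl }
  have he : ∀ x (t : Tm ι), ((t.ev (gg v)).1 : ∀ x, B x) x = t.ev (w x) := fun x t =>
    Tm.map_ev ((e x).comp (Gen v).subtype) (gg v) t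
  refine ⟨Gen v, inferInstance, gg v, fun t ht => ?_, gen_top v, fun C _ z hz =>
    exists_hom _ _ (gen_top v) fun t => le_of_forall_lt fun r hr => ?_⟩
  · refine Subtype.ext (lp.ext (funext fun x => ?_))
    rw [he, hw x t ht]
    rfl
  · rcases lt_or_ge r 0 with h | h
    · exact h.trans_le (norm_nonneg _)
    · let x : I := ⟨(t, r), C, inferInstance, z, hz, h, hr⟩
      refine (h1 x).trans_le ?_
      rw [← he]
      exact lp.norm_apply_le_norm (by simp) _ x

/-! ### Completions -/

section Compl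
variable (P : Type) [SeminormedRing P] [StarRing P] [NormedAlgebra ℂ P] [StarModule ℂ P]
  [NormedStarGroup P]

lemma uc_star : UniformContinuous (star : P → P) := star_isometry.uniformContinuous

noncomputable instance : Star (Completion P) := ⟨Completion.map star⟩

lemma star_coe (f : P) : star (f : Completion P) = (star f : P) :=
  Completion.map_coe (uc_star P) f

lemma cont_star : Continuous (star : Completion P → Completion P) :=
  Completion.continuous_map

noncomputable instance : StarRing (Completion P) where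
  star_involutive x := by
    induction x using Completion.induction_on with
    | hp => exact isClosed_eq ((cont_star P).comp (cont_star P)) continuous_id
    | ih x => rw [star_coe, star_coe, star_star]
  star_mul x y := by
    have := cont_star P
    induction x, y using Completion.induction_on₂ with
    | hp => exact isClosed_eq (by fun_prop) (by fun_prop)
    | ih x y => rw [← Completion.coe_mul, star_coe, star_coe, star_coe, star_mul, Completion.coe_mul]
  star_add x y := by
    have := cont_star P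
    induction x, y using Completion.induction_on₂ with
    | hp => exact isClosed_eq (by fun_prop) (by fun_prop)
    | ih x y => rw [← Completion.coe_add, star_coe, star_coe, star_coe, star_add, Completion.coe_add]

noncomputable instance : NormedAlgebra ℂ (Completion P) where
  norm_smul_le := norm_smul_le

instance : StarModule ℂ (Completion P) where
  star_smul c x := by
    induction x using Completion.induction_on with
    | hp =>
      exact isClosed_eq ((cont_star P).comp (continuous_const_smul c))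
        ((continuous_const_smul (star c)).comp (cont_star P))
    | ih x => rw [← Completion.coe_smul, star_coe, star_coe, star_smul, Completion.coe_smul]

theorem exists_compl (h : ∀ x : P, ‖x‖ * ‖x‖ ≤ ‖star x * x‖) :
    ∃ (Q : Type) (_ : CStarAlgebra Q) (j : P →⋆ₐ[ℂ] Q), ∀ f, ‖j f‖ = ‖f‖ := by
  have : CStarRing (Completion P) := ⟨fun x => by
    have := cont_star P
    induction x using Completion.induction_on with
    | hp => exact isClosed_le (by fun_prop) (by fun_prop)
    | ih x =>
      rw [star_coe, ← Completion.coe_mul, Completion.norm_coe, Completion.norm_coe]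
      exact h x⟩
  exact ⟨Completion P, {},
    { (Completion.coeRingHom : P →+* Completion P) with
      commutes' := fun _ => rfl
      map_star' := fun f => (star_coe P f).symm }, Completion.norm_coe⟩

end Compl

/-! ### Ultrapowers -/

section Ultra
variable (ω : Ultrafilter ℕ) (O : Type) [CStarAlgebra O]

/-- Bounded sequences. -/
def Bdd : StarSubalgebra ℂ (ℕ → O) where
  carrier := {f | ∃ C, ∀ n, ‖f n‖ ≤ C}
  mul_mem' := fun ⟨C, hC⟩ ⟨D, hD⟩ => ⟨C * D, fun n => (norm_mul_le _ _).trans
    (mul_le_mul (hC n) (hD n) (norm_nonneg _) ((norm_nonneg _).trans (hC n)))⟩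
  add_mem' := fun ⟨C, hC⟩ ⟨D, hD⟩ => ⟨C + D, fun n => (norm_add_le _ _).trans
    (add_le_add (hC n) (hD n))⟩
  algebraMap_mem' := fun r => ⟨‖algebraMap ℂ O r‖, fun n => le_rfl⟩
  star_mem' := fun ⟨C, hC⟩ => ⟨C, fun n => (norm_star _).trans_le (hC n)⟩

/-- Bounded sequences with the limit seminorm. -/
def UP (ω : Ultrafilter ℕ) (O : Type) [CStarAlgebra O] : Type := Bdd O

noncomputable instance : Ring (UP ω O) := inferInstanceAs (Ring (Bdd O))
noncomputable instance : Algebra ℂ (UP ω O) := inferInstanceAs (Algebra ℂ (Bdd O))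
noncomputable instance : StarRing (UP ω O) := inferInstanceAs (StarRing (Bdd O))
noncomputable instance : StarModule ℂ (UP ω O) := inferInstanceAs (StarModule ℂ (Bdd O))

lemma exists_lim (f : Bdd O) : ∃ r, Tendsto (fun n => ‖f.1 n‖) (ω : Filter ℕ) (𝓝 r) := by
  obtain ⟨C, hC⟩ : ∃ C, ∀ n, ‖f.1 n‖ ≤ C := f.2
  obtain ⟨r, -, hr⟩ := (isCompact_Icc (a := 0) (b := C)).ultrafilter_le_nhds
    (ω.map fun n => ‖f.1 n‖) (by
      rw [le_principal_iff]
      exact mem_map.mpr (univ_mem' fun n => ⟨norm_nonneg _, hC n⟩))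
  exact ⟨r, hr⟩

/-- The limit seminorm. -/
noncomputable def nu (f : Bdd O) : ℝ := (exists_lim ω O f).choose

lemma nu_spec (f : Bdd O) : Tendsto (fun n => ‖f.1 n‖) (ω : Filter ℕ) (𝓝 (nu ω O f)) :=
  (exists_lim ω O f).choose_spec

noncomputable instance : SeminormedRing (UP ω O) :=
  RingSeminorm.toSeminormedRing
    { toFun := nu ω O
      map_zero' := tendsto_nhds_unique (nu_spec ω O 0) (by simp)
      add_le' := fun f g => le_of_tendsto_of_tendsto' (nu_spec ω O _)
        ((nu_spec ω O f).add (nu_spec ω O g)) fun n => norm_add_le _ _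
      neg' := fun f => tendsto_nhds_unique (nu_spec ω O _)
        ((nu_spec ω O f).congr fun n => (norm_neg _).symm)
      mul_le' := fun f g => le_of_tendsto_of_tendsto' (nu_spec ω O _)
        ((nu_spec ω O f).mul (nu_spec ω O g)) fun n => norm_mul_le _ _ }

noncomputable instance : NormedAlgebra ℂ (UP ω O) where
  norm_smul_le c f := le_of_tendsto_of_tendsto' (nu_spec ω O _)
    ((nu_spec ω O f).const_mul ‖c‖) fun n => norm_smul_le c (f.1 n)

instance : NormedStarGroup (UP ω O) where
  norm_star_le f := le_of_tendsto_of_tendsto' (nu_spec ω O _) (nu_spec ω O f)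
    fun n => (norm_star _).le

theorem exists_ultra : ∃ (Q : Type) (_ : CStarAlgebra Q) (j : Bdd O →⋆ₐ[ℂ] Q),
    ∀ f, Tendsto (fun n => ‖f.1 n‖) (ω : Filter ℕ) (𝓝 ‖j f‖) := by
  obtain ⟨Q, _, j, hj⟩ := exists_compl (UP ω O) fun x =>
    le_of_tendsto_of_tendsto' ((nu_spec ω O x).mul (nu_spec ω O x)) (nu_spec ω O _)
      fun n => CStarRing.norm_mul_self_le _
  exact ⟨Q, inferInstance, j, fun f => (hj f).symm ▸ nu_spec ω O f⟩

end Ultra

end Crest.Agent.R73
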